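import Vale.Agent.P154.D4.K2.Data
import Vale.Agent.P154.ApxLemma

set_option maxRecDepth 100000

namespace Vale.Agent.P154.D4.K2

open PolyR Cert InT OutT

/-- The quotient polynomial for `j = 1`. -/
noncomputable def S1 (u : ℝ) : ℝ :=
  (9 / 8388608 : ℝ) * u ^ 0 + (-23 / 1048576 : ℝ) * u ^ 1 + (-4767 / 16777216 : ℝ) * u ^ 2 + (8371 / 4194304 : ℝ) * u ^ 3 + (162727 / 16777216 : ℝ) * u ^ 4 + (-928595 / 16777216 : ℝ) * u ^ 5 + (-442069 / 8388608 : ℝ) * u ^ 6 + (1023955 / 2097152 : ℝ) * u ^ 7 + (-8754895 / 16777216 : ℝ) * u ^ 8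

/-- Certificate polynomial. -/
def lpu1 : List ITm := [⟨(-1884),0,0⟩,⟨(-50350),1,0⟩,⟨(-305088),2,0⟩,⟨1071488,3,0⟩,⟨2603632,4,0⟩,⟨(-7428760),5,0⟩,⟨(-3536552),6,0⟩,⟨16383280,7,0⟩,⟨(-8754895),8,0⟩]

/-- Certificate tree. -/
def tpu1 : OutT := (A (A (A (A (O l) (O l)) (O l)) (A (A (O l) (A (O l) (O l))) (A (A (O l) (A (O l) (O l))) (A (A (O l) (A (O l) (O l))) (A (A (O l) (O l)) (A (A (O l) (O l)) (A (O l) (O l)))))))) (A (A (A (A (A (A (A (O l) (O l)) (A (O l) (O l))) (A (A (O l) (O l)) (A (O l) (O l)))) (A (A (A (O l) (O l)) (A (O l) (O l))) (A (O l) (O l)))) (A (A (A (O l) (O l)) (A (O l) (O l))) (A (A (O l) (O l)) (O l)))) (A (A (A (O l) (O l)) (A (O l) (O l))) (A (A (O l) (O l)) (A (O l) (O l))))) (A (A (A (A (O l) (O l)) (A (O l) (A (O l) (O l)))) (A (A (A (O l) (O l)) (A (O l) (O l))) (A (A (O l) (O l)) (A (O l) (O l))))) (A (A (A (A (O l) (A (O l) (O l))) (A (A (O l) (O l)) (A (O l) (O l))))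 (A (A (A (O l) (O l)) (A (A (O l) (O l)) (A (O l) (O l)))) (A (A (A (O l) (O l)) (A (O l) (O l))) (A (A (A (O l) (O l)) (A (O l) (O l))) (A (A (O l) (O l)) (A (O l) (O l))))))) (A (A (A (A (A (A (O l) (O l)) (A (O l) (O l))) (A (A (O l) (O l)) (A (O l) (O l)))) (A (A (A (O l) (O l)) (O l)) (A (O l) (O l)))) (A (A (A (O l) (O l)) (A (O l) (O l))) (A (A (O l) (O l)) (O l)))) (A (A (A (O l) (O l)) (A (O l) (O l))) (A (A (O l) (O l)) (O l))))))))

theorem hpu1 (x : ℝ) (h0 : 0 ≤ x) (h1 : x ≤ 1) : evalIL lpu1 x 0 ≤ 0 :=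
  uni_le 8 65536 lpu1 (by norm_num) (by norm_num) (by decide +kernel)
    (chkOut_sound (uniPb 8 65536 lpu1) tpu1 0 32768 0 32768 (by decide +kernel)) x h0 h1

/-- Certificate polynomial. -/
def lpl1 : List ITm := [⟨(-11100),0,0⟩,⟨43858,1,0⟩,⟨305088,2,0⟩,⟨(-1071488),3,0⟩,⟨(-2603632),4,0⟩,⟨7428760,5,0⟩,⟨3536552,6,0⟩,⟨(-16383280),7,0⟩,⟨8754895,8,0⟩]

/-- Certificate tree. -/
def tpl1 : OutT := (A (A (A (O l) (A (A (O l) (O l)) (A (A (O l) (O l)) (A (O l) (O l))))) (A (A (A (A (O l) (O l)) (O l)) (A (O l) (O l))) (A (A (O l) (O l)) (A (O l) (O l))))) (A (A (A (A (O l) (O l)) (A (A (O l) (O l)) (A (O l) (O l)))) (A (A (A (O l) (O l)) (A (A (O l) (O l)) (A (O l) (O l)))) (A (A (A (O l) (O l)) (A (O l) (A (O l) (O l)))) (A (A (A (O l) (O l)) (A (O l) (O l))) (A (A (O l) (O l)) (A (A (O l) (O l)) (A (O l) (O l)))))))) (A (A (A (A (A (A (A (O l) (O l)) (A (O l) (O l))) (A (A (O l) (O l)) (A (O l) (O l))))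 (A (A (A (O l) (O l)) (A (O l) (O l))) (A (A (O l) (O l)) (A (O l) (O l))))) (A (A (A (A (O l) (O l)) (A (O l) (O l))) (A (A (O l) (O l)) (O l))) (A (A (O l) (O l)) (A (O l) (O l))))) (A (A (A (A (O l) (O l)) (A (O l) (O l))) (A (A (O l) (O l)) (O l))) (A (A (O l) (O l)) (A (O l) (O l))))) (A (A (A (A (O l) (O l)) (A (O l) (O l))) (A (A (O l) (O l)) (A (O l) (O l)))) (A (A (A (O l) (O l)) (A (O l) (O l))) (A (A (O l) (A (O l) (O l))) (A (A (O l) (O l)) (A (O l) (A (O l) (A (O l) (O l)))))))))))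

theorem hpl1 (x : ℝ) (h0 : 0 ≤ x) (h1 : x ≤ 1) : evalIL lpl1 x 0 ≤ 0 :=
  uni_le 8 65536 lpl1 (by norm_num) (by norm_num) (by decide +kernel)
    (chkOut_sound (uniPb 8 65536 lpl1) tpl1 0 32768 0 32768 (by decide +kernel)) x h0 h1

/-- Certificate polynomial. -/
def lnu1 : List ITm := [⟨(-482304),0,0⟩,⟨6444800,1,0⟩,⟨(-19525632),2,0⟩,⟨(-34287616),3,0⟩,⟨41658112,4,0⟩,⟨59430080,5,0⟩,⟨(-14146208),6,0⟩,⟨(-32766560),7,0⟩,⟨(-8754895),8,0⟩]

/-- Certificate tree. -/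
def tnu1 : OutT := (A (A (A (A (O l) (A (O l) (O l))) (A (A (O l) (O l)) (O l))) (A (A (O l) (O l)) (O l))) (A (A (O l) (A (O l) (O l))) (A (A (A (O l) (O l)) (A (O l) (A (O l) (O l)))) (A (A (A (A (O l) (O l)) (A (O l) (O l))) (A (A (O l) (O l)) (O l))) (A (A (O l) (O l)) (O l))))))

theorem hnu1 (x : ℝ) (h0 : 0 ≤ x) (h1 : x ≤ 1) : evalIL lnu1 x 0 ≤ 0 :=
  uni_le 8 65536 lnu1 (by norm_num) (by norm_num) (by decide +kernel)
    (chkOut_sound (uniPb 8 65536 lnu1) tnu1 0 32768 0 32768 (by decide +kernel)) x h0 h1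

/-- Certificate polynomial. -/
def lnl1 : List ITm := [⟨(-2841600),0,0⟩,⟨(-5613824),1,0⟩,⟨19525632,2,0⟩,⟨34287616,3,0⟩,⟨(-41658112),4,0⟩,⟨(-59430080),5,0⟩,⟨14146208,6,0⟩,⟨32766560,7,0⟩,⟨8754895,8,0⟩]

/-- Certificate tree. -/
def tnl1 : OutT := (A (A (O l) (A (O l) (A (O l) (O l)))) (A (A (A (A (O l) (O l)) (A (A (O l) (O l)) (A (O l) (O l)))) (A (A (A (O l) (O l)) (O l)) (A (O l) (O l)))) (A (A (O l) (O l)) (A (O l) (A (O l) (A (O l) (A (O l) (O l))))))))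

theorem hnl1 (x : ℝ) (h0 : 0 ≤ x) (h1 : x ≤ 1) : evalIL lnl1 x 0 ≤ 0 :=
  uni_le 8 65536 lnl1 (by norm_num) (by norm_num) (by decide +kernel)
    (chkOut_sound (uniPb 8 65536 lnl1) tnl1 0 32768 0 32768 (by decide +kernel)) x h0 h1

theorem apx1 (u : ℝ) (h0 : -(1 / 4 : ℝ) ≤ u) (h1 : u ≤ 2 * (1 / 4 : ℝ)) :
    |((1 + u)⁻¹) ^ 1 - evalZ Ax.p1 (3 * u) / Ax.D1| ≤ Ax.e1 * |u| ^ Ax.m1 := by
  have hu : 0 < 1 + u := by norm_num at h0 ⊢; linarith
  refine apx_of_S 1 2 _ (S1 u) _ u hu ?_ ?_ ?_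
  · simp only [Ax, evalZ_cons, evalZ_nil, S1]
    push_cast
    ring
  · rcases le_total 0 u with hs | hs
    · have hx := hpu1 (u / (2 * (1 / 4 : ℝ))) (by positivity) (by rw [div_le_one (by norm_num)]; exact h1)
      have e : evalIL lpu1 (u / (2 * (1 / 4 : ℝ))) 0 = 4294967296 * (S1 u - Ax.e1 * (1 + u) ^ 1) := by
        simp only [lpu1, evalIL, List.map_cons, List.map_nil, List.sum_cons, List.sum_nil, S1, Ax]
        push_cast
        ring
      rw [e] at hx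
      have := cmul_nonpos (by norm_num) hx
      simp only [Ax] at this ⊢
      linarith
    · have hx := hnu1 (-u / (1 / 4 : ℝ)) (by apply div_nonneg <;> [linarith; norm_num]) (by rw [div_le_one (by norm_num)]; linarith)
      have e : evalIL lnu1 (-u / (1 / 4 : ℝ)) 0 = 1099511627776 * (S1 u - Ax.e1 * (1 + u) ^ 1) := by
        simp only [lnu1, evalIL, List.map_cons, List.map_nil, List.sum_cons, List.sum_nil, S1, Ax]
        push_cast
        ring
      rw [e] at hx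
      have := cmul_nonpos (by norm_num) hx
      simp only [Ax] at this ⊢
      linarith
  · rcases le_total 0 u with hs | hs
    · have hx := hpl1 (u / (2 * (1 / 4 : ℝ))) (by positivity) (by rw [div_le_one (by norm_num)]; exact h1)
      have e : evalIL lpl1 (u / (2 * (1 / 4 : ℝ))) 0 = 4294967296 * (-S1 u - Ax.e1 * (1 + u) ^ 1) := by
        simp only [lpl1, evalIL, List.map_cons, List.map_nil, List.sum_cons, List.sum_nil, S1, Ax]
        push_cast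
        ring
      rw [e] at hx
      have := cmul_nonpos (by norm_num) hx
      simp only [Ax] at this ⊢
      linarith
    · have hx := hnl1 (-u / (1 / 4 : ℝ)) (by apply div_nonneg <;> [linarith; norm_num]) (by rw [div_le_one (by norm_num)]; linarith)
      have e : evalIL lnl1 (-u / (1 / 4 : ℝ)) 0 = 1099511627776 * (-S1 u - Ax.e1 * (1 + u) ^ 1) := by
        simp only [lnl1, evalIL, List.map_cons, List.map_nil, List.sum_cons, List.sum_nil, S1, Ax]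
        push_cast
        ring
      rw [e] at hx
      have := cmul_nonpos (by norm_num) hx
      simp only [Ax] at this ⊢
      linarith

/-- The quotient polynomial for `j = 2`. -/
noncomputable def S2 (u : ℝ) : ℝ :=
  (91 / 8388608 : ℝ) * u ^ 0 + (-241 / 1048576 : ℝ) * u ^ 1 + (-13281 / 4194304 : ℝ) * u ^ 2 + (39701 / 2097152 : ℝ) * u ^ 3 + (2017223 / 16777216 : ℝ) * u ^ 4 + (-8400089 / 16777216 : ℝ) * u ^ 5 + (-17972883 / 16777216 : ℝ) * u ^ 6 + (78673655 / 16777216 : ℝ) * u ^ 7 + (-7362429 / 8388608 : ℝ) * u ^ 8 + (-42271781 / 8388608 : ℝ) * u ^ 9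

/-- Certificate polynomial. -/
def lpu2 : List ITm := [⟨(-21236),0,0⟩,⟨(-561396),1,0⟩,⟨(-3416893),2,0⟩,⟨10163456,3,0⟩,⟨32275568,4,0⟩,⟨(-67200712),5,0⟩,⟨(-71891532),6,0⟩,⟨157347310,7,0⟩,⟨(-14724858),8,0⟩,⟨(-42271781),9,0⟩]

/-- Certificate tree. -/
def tpu2 : OutT := (A (A (A (A (O l) (O l)) (O l)) (A (A (O l) (A (O l) (O l))) (A (A (O l) (A (O l) (O l))) (A (A (O l) (A (O l) (O l))) (A (A (O l) (O l)) (A (A (O l) (O l)) (A (O l) (O l)))))))) (A (A (A (A (A (A (A (O l) (O l)) (A (O l) (O l))) (A (A (O l) (O l)) (A (O l) (O l)))) (A (A (A (O l) (O l)) (O l)) (A (O l) (O l)))) (A (A (A (O l) (O l)) (A (O l) (O l))) (A (O l) (O l)))) (A (A (A (O l) (O l)) (A (O l) (O l))) (A (A (O l) (O l)) (A (O l) (O l))))) (A (A (A (A (O l) (O l)) (A (O l) (O l))) (A (A (O l) (A (O l) (O l))) (A (A (O l) (O l)) (A (O l) (O l))))) (A (A (A (A (O l) (O l)) (A (A (O l) (O l)) (A (O l) (O l)))) (A (A (A (O l) (O l))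 (A (O l) (A (O l) (O l)))) (A (A (A (O l) (O l)) (A (O l) (O l))) (A (A (O l) (A (O l) (O l))) (A (A (O l) (O l)) (A (O l) (O l))))))) (A (A (A (A (A (A (O l) (O l)) (A (O l) (O l))) (A (A (O l) (O l)) (A (O l) (O l)))) (A (A (O l) (O l)) (A (O l) (O l)))) (A (A (A (O l) (O l)) (O l)) (A (O l) (O l)))) (A (A (A (O l) (O l)) (A (O l) (O l))) (A (O l) (O l))))))))

theorem hpu2 (x : ℝ) (h0 : 0 ≤ x) (h1 : x ≤ 1) : evalIL lpu2 x 0 ≤ 0 :=
  uni_le 9 65536 lpu2 (by norm_num) (by norm_num) (by decide +kernel)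
    (chkOut_sound (uniPb 9 65536 lpu2) tpu2 0 32768 0 32768 (by decide +kernel)) x h0 h1

/-- Certificate polynomial. -/
def lpl2 : List ITm := [⟨(-114420),0,0⟩,⟨425740,1,0⟩,⟨3382979,2,0⟩,⟨(-10163456),3,0⟩,⟨(-32275568),4,0⟩,⟨67200712,5,0⟩,⟨71891532,6,0⟩,⟨(-157347310),7,0⟩,⟨14724858,8,0⟩,⟨42271781,9,0⟩]

/-- Certificate tree. -/
def tpl2 : OutT := (A (A (A (O l) (A (A (O l) (A (O l) (O l))) (A (A (O l) (A (O l) (O l))) (A (A (O l) (O l)) (O l))))) (A (A (A (A (O l) (O l)) (O l)) (A (O l) (O l))) (A (A (O l) (O l)) (A (O l) (O l))))) (A (A (A (A (O l) (O l)) (A (O l) (A (O l) (O l)))) (A (A (A (O l) (O l)) (A (O l) (A (O l) (O l)))) (A (A (A (O l) (O l)) (A (O l) (O l))) (A (A (A (O l) (O l)) (A (O l) (O l))) (A (A (O l) (O l)) (A (A (O l) (O l)) (A (O l) (O l)))))))) (A (A (A (A (A (A (A (O l) (O l)) (A (O l) (O l))) (A (A (O l) (O l)) (A (O l) (O l)))) (A (A (A (O l) (O l)) (A (O l) (O l))) (A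 (A (O l) (O l)) (A (O l) (O l))))) (A (A (A (A (O l) (O l)) (A (O l) (O l))) (A (O l) (O l))) (A (A (O l) (O l)) (A (O l) (O l))))) (A (A (A (A (O l) (O l)) (O l)) (A (O l) (O l))) (A (A (O l) (O l)) (A (O l) (O l))))) (A (A (A (A (O l) (O l)) (A (O l) (O l))) (A (A (O l) (O l)) (A (O l) (O l)))) (A (A (A (O l) (O l)) (A (O l) (O l))) (A (A (O l) (O l)) (A (A (O l) (O l)) (A (O l) (A (O l) (A (O l) (O l)))))))))))

theorem hpl2 (x : ℝ) (h0 : 0 ≤ x) (h1 : x ≤ 1) : evalIL lpl2 x 0 ≤ 0 :=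
  uni_le 9 65536 lpl2 (by norm_num) (by norm_num) (by decide +kernel)
    (chkOut_sound (uniPb 9 65536 lpl2) tpl2 0 32768 0 32768 (by decide +kernel)) x h0 h1

/-- Certificate polynomial. -/
def lnu2 : List ITm := [⟨(-10872832),0,0⟩,⟨143717376,1,0⟩,⟨(-437362304),2,0⟩,⟨(-650461184),3,0⟩,⟨1032818176,4,0⟩,⟨1075211392,5,0⟩,⟨(-575132256),6,0⟩,⟨(-629389240),7,0⟩,⟨(-29449716),8,0⟩,⟨42271781,9,0⟩]

/-- Certificate tree. -/
def tnu2 : OutT := (A (A (A (A (O l) (A (O l) (O l))) (A (A (O l) (O l)) (O l))) (A (A (O l) (O l)) (O l))) (A (A (O l) (A (O l) (O l))) (A (A (A (O l) (O l)) (A (O l) (A (O l) (A (O l) (O l))))) (A (A (A (A (O l) (O l)) (A (A (O l) (O l)) (A (O l) (O l)))) (A (A (O l) (O l)) (A (O l) (O l)))) (A (A (O l) (O l)) (O l))))))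

theorem hnu2 (x : ℝ) (h0 : 0 ≤ x) (h1 : x ≤ 1) : evalIL lnu2 x 0 ≤ 0 :=
  uni_le 9 65536 lnu2 (by norm_num) (by norm_num) (by decide +kernel)
    (chkOut_sound (uniPb 9 65536 lnu2) tnu2 0 32768 0 32768 (by decide +kernel)) x h0 h1

/-- Certificate polynomial. -/
def lnl2 : List ITm := [⟨(-58583040),0,0⟩,⟨(-108989440),1,0⟩,⟨433021312,2,0⟩,⟨650461184,3,0⟩,⟨(-1032818176),4,0⟩,⟨(-1075211392),5,0⟩,⟨575132256,6,0⟩,⟨629389240,7,0⟩,⟨29449716,8,0⟩,⟨(-42271781),9,0⟩]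

/-- Certificate tree. -/
def tnl2 : OutT := (A (A (O l) (A (O l) (A (O l) (O l)))) (A (A (A (A (O l) (A (O l) (O l))) (A (A (O l) (O l)) (A (A (O l) (O l)) (O l)))) (A (A (A (O l) (O l)) (O l)) (A (O l) (O l)))) (A (A (A (O l) (O l)) (O l)) (A (O l) (A (O l) (A (O l) (A (O l) (A (O l) (O l)))))))))

theorem hnl2 (x : ℝ) (h0 : 0 ≤ x) (h1 : x ≤ 1) : evalIL lnl2 x 0 ≤ 0 :=
  uni_le 9 65536 lnl2 (by norm_num) (by norm_num) (by decide +kernel)
    (chkOut_sound (uniPb 9 65536 lnl2) tnl2 0 32768 0 32768 (by decide +kernel)) x h0 h1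

theorem apx2 (u : ℝ) (h0 : -(1 / 4 : ℝ) ≤ u) (h1 : u ≤ 2 * (1 / 4 : ℝ)) :
    |((1 + u)⁻¹) ^ 2 - evalZ Ax.p2 (3 * u) / Ax.D2| ≤ Ax.e2 * |u| ^ Ax.m2 := by
  have hu : 0 < 1 + u := by norm_num at h0 ⊢; linarith
  refine apx_of_S 2 2 _ (S2 u) _ u hu ?_ ?_ ?_
  · simp only [Ax, evalZ_cons, evalZ_nil, S2]
    push_cast
    ring
  · rcases le_total 0 u with hs | hs
    · have hx := hpu2 (u / (2 * (1 / 4 : ℝ))) (by positivity) (by rw [div_le_one (by norm_num)]; exact h1)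
      have e : evalIL lpu2 (u / (2 * (1 / 4 : ℝ))) 0 = 4294967296 * (S2 u - Ax.e2 * (1 + u) ^ 2) := by
        simp only [lpu2, evalIL, List.map_cons, List.map_nil, List.sum_cons, List.sum_nil, S2, Ax]
        push_cast
        ring
      rw [e] at hx
      have := cmul_nonpos (by norm_num) hx
      simp only [Ax] at this ⊢
      linarith
    · have hx := hnu2 (-u / (1 / 4 : ℝ)) (by apply div_nonneg <;> [linarith; norm_num]) (by rw [div_le_one (by norm_num)]; linarith)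
      have e : evalIL lnu2 (-u / (1 / 4 : ℝ)) 0 = 2199023255552 * (S2 u - Ax.e2 * (1 + u) ^ 2) := by
        simp only [lnu2, evalIL, List.map_cons, List.map_nil, List.sum_cons, List.sum_nil, S2, Ax]
        push_cast
        ring
      rw [e] at hx
      have := cmul_nonpos (by norm_num) hx
      simp only [Ax] at this ⊢
      linarith
  · rcases le_total 0 u with hs | hs
    · have hx := hpl2 (u / (2 * (1 / 4 : ℝ))) (by positivity) (by rw [div_le_one (by norm_num)]; exact h1)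
      have e : evalIL lpl2 (u / (2 * (1 / 4 : ℝ))) 0 = 4294967296 * (-S2 u - Ax.e2 * (1 + u) ^ 2) := by
        simp only [lpl2, evalIL, List.map_cons, List.map_nil, List.sum_cons, List.sum_nil, S2, Ax]
        push_cast
        ring
      rw [e] at hx
      have := cmul_nonpos (by norm_num) hx
      simp only [Ax] at this ⊢
      linarith
    · have hx := hnl2 (-u / (1 / 4 : ℝ)) (by apply div_nonneg <;> [linarith; norm_num]) (by rw [div_le_one (by norm_num)]; linarith)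
      have e : evalIL lnl2 (-u / (1 / 4 : ℝ)) 0 = 2199023255552 * (-S2 u - Ax.e2 * (1 + u) ^ 2) := by
        simp only [lnl2, evalIL, List.map_cons, List.map_nil, List.sum_cons, List.sum_nil, S2, Ax]
        push_cast
        ring
      rw [e] at hx
      have := cmul_nonpos (by norm_num) hx
      simp only [Ax] at this ⊢
      linarith

/-- The quotient polynomial for `j = 3`. -/
noncomputable def S3 (u : ℝ) : ℝ :=
  (6781 / 16777216 : ℝ) * u ^ 0 + (77493 / 16777216 : ℝ) * u ^ 1 + (-1194421 / 16777216 : ℝ) * u ^ 2 + (-6070035 / 16777216 : ℝ) * u ^ 3 + (17651099 / 8388608 : ℝ) * u ^ 4 + (87201821 / 16777216 : ℝ) * u ^ 5 + (-340516471 / 16777216 : ℝ) * u ^ 6 + (-204949483 / 16777216 : ℝ) * u ^ 7 + (571897017 / 16777216 : ℝ) * u ^ 8 + (101503131 / 4194304 : ℝ) * u ^ 9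

/-- Certificate polynomial. -/
def lpu3 : List ITm := [⟨(-186576),0,0⟩,⟨7035336,1,0⟩,⟨(-77884828),2,0⟩,⟨(-194481434),3,0⟩,⟨564835168,4,0⟩,⟨697614568,5,0⟩,⟨(-1362065884),6,0⟩,⟨(-409898966),7,0⟩,⟨571897017,8,0⟩,⟨203006262,9,0⟩]

/-- Certificate tree. -/
def tpu3 : OutT := (A (A (A (A (A (O l) (A (O l) (O l))) (A (O l) (O l))) (A (O l) (O l))) (A (A (O l) (O l)) (A (O l) (O l)))) (A (A (A (A (O l) (O l)) (A (O l) (A (O l) (O l)))) (A (A (A (O l) (A (O l) (O l))) (A (A (O l) (O l)) (A (A (O l) (O l)) (A (O l) (O l))))) (A (A (A (A (O l) (O l)) (A (O l) (O l))) (A (A (O l) (O l)) (A (O l) (O l)))) (A (A (O l) (O l)) (A (O l) (O l)))))) (A (A (A (A (A (O l) (O l)) (O l)) (A (O l) (O l))) (A (A (O l) (O l)) (A (O l) (O l)))) (A (A (O l) (O l)) (A (A (O l) (O l)) (A (O l) (A (O l) (A (O l) (A (O l) (O l))))))))))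

theorem hpu3 (x : ℝ) (h0 : 0 ≤ x) (h1 : x ≤ 1) : evalIL lpu3 x 0 ≤ 0 :=
  uni_le 9 65536 lpu3 (by norm_num) (by norm_num) (by decide +kernel)
    (chkOut_sound (uniPb 9 65536 lpu3) tpu3 0 32768 0 32768 (by decide +kernel)) x h0 h1

/-- Certificate polynomial. -/
def lpl3 : List ITm := [⟨(-3658448),0,0⟩,⟨(-12802872),1,0⟩,⟨75001060,2,0⟩,⟨194000806,3,0⟩,⟨(-564835168),4,0⟩,⟨(-697614568),5,0⟩,⟨1362065884,6,0⟩,⟨409898966,7,0⟩,⟨(-571897017),8,0⟩,⟨(-203006262),9,0⟩]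

/-- Certificate tree. -/
def tpl3 : OutT := (A (A (A (O l) (O l)) (A (A (A (O l) (O l)) (A (A (O l) (O l)) (A (O l) (A (O l) (O l))))) (A (A (A (A (O l) (O l)) (A (O l) (O l))) (A (O l) (O l))) (A (A (O l) (O l)) (O l))))) (A (A (A (A (O l) (O l)) (A (O l) (O l))) (A (A (O l) (O l)) (A (O l) (O l)))) (A (A (A (O l) (O l)) (A (A (O l) (O l)) (A (O l) (A (O l) (O l))))) (A (A (A (A (O l) (O l)) (A (A (O l) (O l)) (A (O l) (O l)))) (A (A (A (O l) (A (O l) (O l))) (A (A (O l) (O l)) (A (O l) (O l)))) (A (A (A (O l) (O l)) (O l)) (A (O l) (O l))))) (A (A (A (A (O l) (O l)) (O l)) (A (O l) (O l))) (A (O l) (O l)))))))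

theorem hpl3 (x : ℝ) (h0 : 0 ≤ x) (h1 : x ≤ 1) : evalIL lpl3 x 0 ≤ 0 :=
  uni_le 9 65536 lpl3 (by norm_num) (by norm_num) (by decide +kernel)
    (chkOut_sound (uniPb 9 65536 lpl3) tpl3 0 32768 0 32768 (by decide +kernel)) x h0 h1

/-- Certificate polynomial. -/
def lnu3 : List ITm := [⟨(-47763456),0,0⟩,⟨(-900523008),1,0⟩,⟨(-4984628992),2,0⟩,⟨6223405888,3,0⟩,⟨9037362688,4,0⟩,⟨(-5580916544),5,0⟩,⟨(-5448263536),6,0⟩,⟨819797932,7,0⟩,⟨571897017,8,0⟩,⟨(-101503131),9,0⟩]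

/-- Certificate tree. -/
def tnu3 : OutT := (A (A (A (O l) (O l)) (O l)) (A (A (O l) (A (O l) (O l))) (A (A (A (O l) (O l)) (A (A (O l) (O l)) (A (A (O l) (O l)) (A (O l) (O l))))) (A (A (A (A (O l) (O l)) (O l)) (A (O l) (O l))) (A (O l) (O l))))))

theorem hnu3 (x : ℝ) (h0 : 0 ≤ x) (h1 : x ≤ 1) : evalIL lnu3 x 0 ≤ 0 :=
  uni_le 9 65536 lnu3 (by norm_num) (by norm_num) (by decide +kernel)
    (chkOut_sound (uniPb 9 65536 lnu3) tnu3 0 32768 0 32768 (by decide +kernel)) x h0 h1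

/-- Certificate polynomial. -/
def lnl3 : List ITm := [⟨(-936562688),0,0⟩,⟨1638767616,1,0⟩,⟨4800067840,2,0⟩,⟨(-6208025792),3,0⟩,⟨(-9037362688),4,0⟩,⟨5580916544,5,0⟩,⟨5448263536,6,0⟩,⟨(-819797932),7,0⟩,⟨(-571897017),8,0⟩,⟨101503131,9,0⟩]

/-- Certificate tree. -/
def tnl3 : OutT := (A (A (O l) (A (O l) (A (A (O l) (O l)) (A (O l) (A (O l) (O l)))))) (A (A (A (A (A (O l) (O l)) (O l)) (A (O l) (O l))) (A (O l) (O l))) (A (A (O l) (O l)) (A (O l) (A (O l) (A (O l) (A (O l) (O l))))))))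

theorem hnl3 (x : ℝ) (h0 : 0 ≤ x) (h1 : x ≤ 1) : evalIL lnl3 x 0 ≤ 0 :=
  uni_le 9 65536 lnl3 (by norm_num) (by norm_num) (by decide +kernel)
    (chkOut_sound (uniPb 9 65536 lnl3) tnl3 0 32768 0 32768 (by decide +kernel)) x h0 h1

theorem apx3 (u : ℝ) (h0 : -(1 / 4 : ℝ) ≤ u) (h1 : u ≤ 2 * (1 / 4 : ℝ)) :
    |((1 + u)⁻¹) ^ 3 - evalZ Ax.p3 (3 * u) / Ax.D3| ≤ Ax.e3 * |u| ^ Ax.m3 := by
  have hu : 0 < 1 + u := by norm_num at h0 ⊢; linarith
  refine apx_of_S 3 2 _ (S3 u) _ u hu ?_ ?_ ?_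
  · simp only [Ax, evalZ_cons, evalZ_nil, S3]
    push_cast
    ring
  · rcases le_total 0 u with hs | hs
    · have hx := hpu3 (u / (2 * (1 / 4 : ℝ))) (by positivity) (by rw [div_le_one (by norm_num)]; exact h1)
      have e : evalIL lpu3 (u / (2 * (1 / 4 : ℝ))) 0 = 4294967296 * (S3 u - Ax.e3 * (1 + u) ^ 3) := by
        simp only [lpu3, evalIL, List.map_cons, List.map_nil, List.sum_cons, List.sum_nil, S3, Ax]
        push_cast
        ring
      rw [e] at hx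
      have := cmul_nonpos (by norm_num) hx
      simp only [Ax] at this ⊢
      linarith
    · have hx := hnu3 (-u / (1 / 4 : ℝ)) (by apply div_nonneg <;> [linarith; norm_num]) (by rw [div_le_one (by norm_num)]; linarith)
      have e : evalIL lnu3 (-u / (1 / 4 : ℝ)) 0 = 1099511627776 * (S3 u - Ax.e3 * (1 + u) ^ 3) := by
        simp only [lnu3, evalIL, List.map_cons, List.map_nil, List.sum_cons, List.sum_nil, S3, Ax]
        push_cast
        ring
      rw [e] at hx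
      have := cmul_nonpos (by norm_num) hx
      simp only [Ax] at this ⊢
      linarith
  · rcases le_total 0 u with hs | hs
    · have hx := hpl3 (u / (2 * (1 / 4 : ℝ))) (by positivity) (by rw [div_le_one (by norm_num)]; exact h1)
      have e : evalIL lpl3 (u / (2 * (1 / 4 : ℝ))) 0 = 4294967296 * (-S3 u - Ax.e3 * (1 + u) ^ 3) := by
        simp only [lpl3, evalIL, List.map_cons, List.map_nil, List.sum_cons, List.sum_nil, S3, Ax]
        push_cast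
        ring
      rw [e] at hx
      have := cmul_nonpos (by norm_num) hx
      simp only [Ax] at this ⊢
      linarith
    · have hx := hnl3 (-u / (1 / 4 : ℝ)) (by apply div_nonneg <;> [linarith; norm_num]) (by rw [div_le_one (by norm_num)]; linarith)
      have e : evalIL lnl3 (-u / (1 / 4 : ℝ)) 0 = 1099511627776 * (-S3 u - Ax.e3 * (1 + u) ^ 3) := by
        simp only [lnl3, evalIL, List.map_cons, List.map_nil, List.sum_cons, List.sum_nil, S3, Ax]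
        push_cast
        ring
      rw [e] at hx
      have := cmul_nonpos (by norm_num) hx
      simp only [Ax] at this ⊢
      linarith

/-- The quotient polynomial for `j = 4`. -/
noncomputable def S4 (u : ℝ) : ℝ :=
  (-905 / 8388608 : ℝ) * u ^ 0 + (1083829 / 8388608 : ℝ) * u ^ 1 + (7611485 / 16777216 : ℝ) * u ^ 2 + (-46842015 / 8388608 : ℝ) * u ^ 3 + (-224500851 / 16777216 : ℝ) * u ^ 4 + (119445375 / 2097152 : ℝ) * u ^ 5 + (1280478183 / 16777216 : ℝ) * u ^ 6 + (-854931515 / 8388608 : ℝ) * u ^ 7 + (-3098980751 / 16777216 : ℝ) * u ^ 8 + (-586400063 / 8388608 : ℝ) * u ^ 9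

/-- Certificate polynomial. -/
def lpu4 : List ITm := [⟨(-67209392),0,0⟩,⟨422355104,1,0⟩,⟨874846072,2,0⟩,⟨(-6028919256),3,0⟩,⟨(-7188169899),4,0⟩,⟨15289008000,5,0⟩,⟨10243825464,6,0⟩,⟨(-6839452120),7,0⟩,⟨(-6197961502),8,0⟩,⟨(-1172800126),9,0⟩]

/-- Certificate tree. -/
def tpu4 : OutT := (A (A (A (A (O l) (O l)) (A (A (O l) (A (O l) (O l))) (A (A (O l) (O l)) (O l)))) (A (A (A (O l) (O l)) (O l)) (A (O l) (O l)))) (A (A (A (O l) (O l)) (A (O l) (O l))) (A (A (A (O l) (O l)) (A (A (O l) (O l)) (A (O l) (A (O l) (O l))))) (A (A (A (A (A (O l) (O l)) (A (O l) (O l))) (A (A (O l) (O l)) (O l))) (A (A (O l) (O l)) (O l))) (A (A (O l) (O l)) (O l))))))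

theorem hpu4 (x : ℝ) (h0 : 0 ≤ x) (h1 : x ≤ 1) : evalIL lpu4 x 0 ≤ 0 :=
  uni_le 9 65536 lpu4 (by norm_num) (by norm_num) (by decide +kernel)
    (chkOut_sound (uniPb 9 65536 lpu4) tpu4 0 32768 0 32768 (by decide +kernel)) x h0 h1

/-- Certificate polynomial. -/
def lpl4 : List ITm := [⟨(-65355952),0,0⟩,⟨(-687485792),1,0⟩,⟨(-1073694088),2,0⟩,⟨5962636584,3,0⟩,⟨7179884565,4,0⟩,⟨(-15289008000),5,0⟩,⟨(-10243825464),6,0⟩,⟨6839452120,7,0⟩,⟨6197961502,8,0⟩,⟨1172800126,9,0⟩]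

/-- Certificate tree. -/
def tpl4 : OutT := (A (A (A (O l) (O l)) (A (O l) (A (O l) (A (O l) (O l))))) (A (A (A (A (O l) (A (O l) (O l))) (A (A (A (O l) (O l)) (A (O l) (O l))) (A (A (O l) (O l)) (O l)))) (A (A (A (O l) (O l)) (O l)) (A (O l) (O l)))) (A (A (A (O l) (O l)) (O l)) (A (O l) (A (O l) (A (O l) (A (O l) (A (O l) (O l)))))))))

theorem hpl4 (x : ℝ) (h0 : 0 ≤ x) (h1 : x ≤ 1) : evalIL lpl4 x 0 ≤ 0 :=
  uni_le 9 65536 lpl4 (by norm_num) (by norm_num) (by decide +kernel)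
    (chkOut_sound (uniPb 9 65536 lpl4) tpl4 0 32768 0 32768 (by decide +kernel)) x h0 h1

/-- Certificate polynomial. -/
def lnu4 : List ITm := [⟨(-17205604352),0,0⟩,⟨(-54061453312),1,0⟩,⟨55990148608,2,0⟩,⟨192925416192,3,0⟩,⟨(-115010718384),4,0⟩,⟨(-122312064000),5,0⟩,⟨40975301856,6,0⟩,⟨13678904240,7,0⟩,⟨(-6197961502),8,0⟩,⟨586400063,9,0⟩]

/-- Certificate tree. -/
def tnu4 : OutT := (A (O l) (A (A (O l) (A (O l) (O l))) (A (A (A (O l) (A (O l) (O l))) (A (A (A (O l) (O l)) (A (O l) (O l))) (A (O l) (O l)))) (A (A (O l) (O l)) (O l)))))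

theorem hnu4 (x : ℝ) (h0 : 0 ≤ x) (h1 : x ≤ 1) : evalIL lnu4 x 0 ≤ 0 :=
  uni_le 9 65536 lnu4 (by norm_num) (by norm_num) (by decide +kernel)
    (chkOut_sound (uniPb 9 65536 lnu4) tnu4 0 32768 0 32768 (by decide +kernel)) x h0 h1

/-- Certificate polynomial. -/
def lnl4 : List ITm := [⟨(-16731123712),0,0⟩,⟨87998181376,1,0⟩,⟨(-68716421632),2,0⟩,⟨(-190804370688),3,0⟩,⟨114878153040,4,0⟩,⟨122312064000,5,0⟩,⟨(-40975301856),6,0⟩,⟨(-13678904240),7,0⟩,⟨6197961502,8,0⟩,⟨(-586400063),9,0⟩]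

/-- Certificate tree. -/
def tnl4 : OutT := (A (A (A (O l) (A (O l) (O l))) (A (A (A (O l) (O l)) (A (O l) (O l))) (A (A (O l) (O l)) (O l)))) (A (A (A (O l) (O l)) (O l)) (A (O l) (A (O l) (A (O l) (A (O l) (A (O l) (O l))))))))

theorem hnl4 (x : ℝ) (h0 : 0 ≤ x) (h1 : x ≤ 1) : evalIL lnl4 x 0 ≤ 0 :=
  uni_le 9 65536 lnl4 (by norm_num) (by norm_num) (by decide +kernel)
    (chkOut_sound (uniPb 9 65536 lnl4) tnl4 0 32768 0 32768 (by decide +kernel)) x h0 h1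

theorem apx4 (u : ℝ) (h0 : -(1 / 4 : ℝ) ≤ u) (h1 : u ≤ 2 * (1 / 4 : ℝ)) :
    |((1 + u)⁻¹) ^ 4 - evalZ Ax.p4 (3 * u) / Ax.D4| ≤ Ax.e4 * |u| ^ Ax.m4 := by
  have hu : 0 < 1 + u := by norm_num at h0 ⊢; linarith
  refine apx_of_S 4 2 _ (S4 u) _ u hu ?_ ?_ ?_
  · simp only [Ax, evalZ_cons, evalZ_nil, S4]
    push_cast
    ring
  · rcases le_total 0 u with hs | hs
    · have hx := hpu4 (u / (2 * (1 / 4 : ℝ))) (by positivity) (by rw [div_le_one (by norm_num)]; exact h1)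
      have e : evalIL lpu4 (u / (2 * (1 / 4 : ℝ))) 0 = 8589934592 * (S4 u - Ax.e4 * (1 + u) ^ 4) := by
        simp only [lpu4, evalIL, List.map_cons, List.map_nil, List.sum_cons, List.sum_nil, S4, Ax]
        push_cast
        ring
      rw [e] at hx
      have := cmul_nonpos (by norm_num) hx
      simp only [Ax] at this ⊢
      linarith
    · have hx := hnu4 (-u / (1 / 4 : ℝ)) (by apply div_nonneg <;> [linarith; norm_num]) (by rw [div_le_one (by norm_num)]; linarith)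
      have e : evalIL lnu4 (-u / (1 / 4 : ℝ)) 0 = 2199023255552 * (S4 u - Ax.e4 * (1 + u) ^ 4) := by
        simp only [lnu4, evalIL, List.map_cons, List.map_nil, List.sum_cons, List.sum_nil, S4, Ax]
        push_cast
        ring
      rw [e] at hx
      have := cmul_nonpos (by norm_num) hx
      simp only [Ax] at this ⊢
      linarith
  · rcases le_total 0 u with hs | hs
    · have hx := hpl4 (u / (2 * (1 / 4 : ℝ))) (by positivity) (by rw [div_le_one (by norm_num)]; exact h1)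
      have e : evalIL lpl4 (u / (2 * (1 / 4 : ℝ))) 0 = 8589934592 * (-S4 u - Ax.e4 * (1 + u) ^ 4) := by
        simp only [lpl4, evalIL, List.map_cons, List.map_nil, List.sum_cons, List.sum_nil, S4, Ax]
        push_cast
        ring
      rw [e] at hx
      have := cmul_nonpos (by norm_num) hx
      simp only [Ax] at this ⊢
      linarith
    · have hx := hnl4 (-u / (1 / 4 : ℝ)) (by apply div_nonneg <;> [linarith; norm_num]) (by rw [div_le_one (by norm_num)]; linarith)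
      have e : evalIL lnl4 (-u / (1 / 4 : ℝ)) 0 = 2199023255552 * (-S4 u - Ax.e4 * (1 + u) ^ 4) := by
        simp only [lnl4, evalIL, List.map_cons, List.map_nil, List.sum_cons, List.sum_nil, S4, Ax]
        push_cast
        ring
      rw [e] at hx
      have := cmul_nonpos (by norm_num) hx
      simp only [Ax] at this ⊢
      linarith

/-- The quotient polynomial for `j = 5`. -/
noncomputable def S5 (u : ℝ) : ℝ :=
  (8745 / 16777216 : ℝ) * u ^ 0 + (3236097 / 8388608 : ℝ) * u ^ 1 + (26914499 / 16777216 : ℝ) * u ^ 2 + (-32738233 / 2097152 : ℝ) * u ^ 3 + (-448484113 / 8388608 : ℝ) * u ^ 4 + (1137991489 / 8388608 : ℝ) * u ^ 5 + (786582023 / 2097152 : ℝ) * u ^ 6 + (-426569939 / 4194304 : ℝ) * u ^ 7 + (-13788743115 / 16777216 : ℝ) * u ^ 8 + (-741120321 / 1048576 : ℝ) * u ^ 9 + (-3194300887 / 16777216 : ℝ) * u ^ 10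

/-- Certificate polynomial. -/
def lpu5 : List ITm := [⟨(-766252576),0,0⟩,⟨4667120816,1,0⟩,⟨11819817648,2,0⟩,⟨(-68028104104),3,0⟩,⟨(-115056983658),4,0⟩,⟨145638405519,5,0⟩,⟨201364997888,6,0⟩,⟨(-27300476096),7,0⟩,⟨(-110309944920),8,0⟩,⟨(-47431700544),9,0⟩,⟨(-6388601774),10,0⟩]

/-- Certificate tree. -/
def tpu5 : OutT := (A (A (A (A (O l) (O l)) (A (A (O l) (A (O l) (O l))) (A (A (O l) (O l)) (O l)))) (A (A (A (O l) (O l)) (O l)) (A (O l) (O l)))) (A (A (A (O l) (O l)) (A (O l) (O l))) (A (A (A (O l) (O l)) (A (A (O l) (O l)) (A (O l) (A (O l) (O l))))) (A (A (A (A (O l) (A (O l) (O l))) (A (O l) (O l))) (A (A (O l) (O l)) (O l))) (A (A (O l) (O l)) (O l))))))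

theorem hpu5 (x : ℝ) (h0 : 0 ≤ x) (h1 : x ≤ 1) : evalIL lpu5 x 0 ≤ 0 :=
  uni_le 10 65536 lpu5 (by norm_num) (by norm_num) (by decide +kernel)
    (chkOut_sound (uniPb 10 65536 lpu5) tpu5 0 32768 0 32768 (by decide +kernel)) x h0 h1

/-- Certificate polynomial. -/
def lpl5 : List ITm := [⟨(-802072096),0,0⟩,⟨(-8587932496),1,0⟩,⟨(-15740629328),2,0⟩,⟨66067698264,3,0⟩,⟨114566882198,4,0⟩,⟨(-145687415665),5,0⟩,⟨(-201364997888),6,0⟩,⟨27300476096,7,0⟩,⟨110309944920,8,0⟩,⟨47431700544,9,0⟩,⟨6388601774,10,0⟩]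

/-- Certificate tree. -/
def tpl5 : OutT := (A (A (A (O l) (O l)) (A (O l) (A (O l) (A (O l) (O l))))) (A (A (A (A (O l) (A (O l) (O l))) (A (A (A (O l) (O l)) (A (O l) (O l))) (A (A (O l) (O l)) (O l)))) (A (A (A (O l) (O l)) (O l)) (A (O l) (O l)))) (A (A (A (O l) (O l)) (O l)) (A (O l) (A (O l) (A (O l) (A (O l) (A (O l) (O l)))))))))

theorem hpl5 (x : ℝ) (h0 : 0 ≤ x) (h1 : x ≤ 1) : evalIL lpl5 x 0 ≤ 0 :=
  uni_le 10 65536 lpl5 (by norm_num) (by norm_num) (by decide +kernel)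
    (chkOut_sound (uniPb 10 65536 lpl5) tpl5 0 32768 0 32768 (by decide +kernel)) x h0 h1

/-- Certificate polynomial. -/
def lnu5 : List ITm := [⟨(-392321318912),0,0⟩,⟨(-1194782928896),1,0⟩,⟨1512936658944,2,0⟩,⟨4353798662656,3,0⟩,⟨(-3681823477056),4,0⟩,⟨(-2330214488304),5,0⟩,⟨1610919983104,6,0⟩,⟨109201904384,7,0⟩,⟨(-220619889840),8,0⟩,⟨47431700544,9,0⟩,⟨(-3194300887),10,0⟩]

/-- Certificate tree. -/
def tnu5 : OutT := (A (A (O l) (O l)) (A (A (O l) (A (O l) (A (O l) (O l)))) (A (A (A (O l) (A (O l) (O l))) (A (A (A (O l) (O l)) (A (O l) (O l))) (A (A (O l) (O l)) (O l)))) (A (A (A (O l) (O l)) (O l)) (A (O l) (O l))))))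

theorem hnu5 (x : ℝ) (h0 : 0 ≤ x) (h1 : x ≤ 1) : evalIL lnu5 x 0 ≤ 0 :=
  uni_le 10 65536 lnu5 (by norm_num) (by norm_num) (by decide +kernel)
    (chkOut_sound (uniPb 10 65536 lnu5) tnu5 0 32768 0 32768 (by decide +kernel)) x h0 h1

/-- Certificate polynomial. -/
def lnl5 : List ITm := [⟨(-410660913152),0,0⟩,⟨2198510718976,1,0⟩,⟨(-2014800553984),2,0⟩,⟨(-4228332688896),3,0⟩,⟨3666140230336,4,0⟩,⟨2330998650640,5,0⟩,⟨(-1610919983104),6,0⟩,⟨(-109201904384),7,0⟩,⟨220619889840,8,0⟩,⟨(-47431700544),9,0⟩,⟨3194300887,10,0⟩]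

/-- Certificate tree. -/
def tnl5 : OutT := (A (A (A (O l) (O l)) (A (A (A (O l) (O l)) (A (O l) (O l))) (A (A (O l) (O l)) (O l)))) (A (A (A (O l) (O l)) (O l)) (A (O l) (A (O l) (A (O l) (A (O l) (A (O l) (O l))))))))

theorem hnl5 (x : ℝ) (h0 : 0 ≤ x) (h1 : x ≤ 1) : evalIL lnl5 x 0 ≤ 0 :=
  uni_le 10 65536 lnl5 (by norm_num) (by norm_num) (by decide +kernel)
    (chkOut_sound (uniPb 10 65536 lnl5) tnl5 0 32768 0 32768 (by decide +kernel)) x h0 h1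

theorem apx5 (u : ℝ) (h0 : -(1 / 4 : ℝ) ≤ u) (h1 : u ≤ 2 * (1 / 4 : ℝ)) :
    |((1 + u)⁻¹) ^ 5 - evalZ Ax.p5 (3 * u) / Ax.D5| ≤ Ax.e5 * |u| ^ Ax.m5 := by
  have hu : 0 < 1 + u := by norm_num at h0 ⊢; linarith
  refine apx_of_S 5 2 _ (S5 u) _ u hu ?_ ?_ ?_
  · simp only [Ax, evalZ_cons, evalZ_nil, S5]
    push_cast
    ring
  · rcases le_total 0 u with hs | hs
    · have hx := hpu5 (u / (2 * (1 / 4 : ℝ))) (by positivity) (by rw [div_le_one (by norm_num)]; exact h1)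
      have e : evalIL lpu5 (u / (2 * (1 / 4 : ℝ))) 0 = 34359738368 * (S5 u - Ax.e5 * (1 + u) ^ 5) := by
        simp only [lpu5, evalIL, List.map_cons, List.map_nil, List.sum_cons, List.sum_nil, S5, Ax]
        push_cast
        ring
      rw [e] at hx
      have := cmul_nonpos (by norm_num) hx
      simp only [Ax] at this ⊢
      linarith
    · have hx := hnu5 (-u / (1 / 4 : ℝ)) (by apply div_nonneg <;> [linarith; norm_num]) (by rw [div_le_one (by norm_num)]; linarith)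
      have e : evalIL lnu5 (-u / (1 / 4 : ℝ)) 0 = 17592186044416 * (S5 u - Ax.e5 * (1 + u) ^ 5) := by
        simp only [lnu5, evalIL, List.map_cons, List.map_nil, List.sum_cons, List.sum_nil, S5, Ax]
        push_cast
        ring
      rw [e] at hx
      have := cmul_nonpos (by norm_num) hx
      simp only [Ax] at this ⊢
      linarith
  · rcases le_total 0 u with hs | hs
    · have hx := hpl5 (u / (2 * (1 / 4 : ℝ))) (by positivity) (by rw [div_le_one (by norm_num)]; exact h1)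
      have e : evalIL lpl5 (u / (2 * (1 / 4 : ℝ))) 0 = 34359738368 * (-S5 u - Ax.e5 * (1 + u) ^ 5) := by
        simp only [lpl5, evalIL, List.map_cons, List.map_nil, List.sum_cons, List.sum_nil, S5, Ax]
        push_cast
        ring
      rw [e] at hx
      have := cmul_nonpos (by norm_num) hx
      simp only [Ax] at this ⊢
      linarith
    · have hx := hnl5 (-u / (1 / 4 : ℝ)) (by apply div_nonneg <;> [linarith; norm_num]) (by rw [div_le_one (by norm_num)]; linarith)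
      have e : evalIL lnl5 (-u / (1 / 4 : ℝ)) 0 = 17592186044416 * (-S5 u - Ax.e5 * (1 + u) ^ 5) := by
        simp only [lnl5, evalIL, List.map_cons, List.map_nil, List.sum_cons, List.sum_nil, S5, Ax]
        push_cast
        ring
      rw [e] at hx
      have := cmul_nonpos (by norm_num) hx
      simp only [Ax] at this ⊢
      linarith

theorem hAx : Ax.OK (-(1 / 4 : ℝ)) (2 * (1 / 4 : ℝ)) where
  e10 := by simp only [Ax]; norm_num
  e20 := by simp only [Ax]; norm_num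
  e30 := by simp only [Ax]; norm_num
  e40 := by simp only [Ax]; norm_num
  e50 := by simp only [Ax]; norm_num
  h1 := fun u a b => by simpa using apx1 u a b
  h2 := apx2
  h3 := apx3
  h4 := apx4
  h5 := apx5

end Vale.Agent.P154.D4.K2
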