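import Vale.Agent.P154.D4.K2.Data
import Vale.Agent.P154.Check2

namespace Vale.Agent.P154.D4.K2

open Cert

/-- Chart (0, 0). -/
def P00 : Pb := chartPb false false Nd w G []

/-- Chart (0, 1). -/
def P01 : Pb := chartPb false true Nd w G []

/-- Chart (1, 0). -/
def P10 : Pb := chartPb true false Nd w G []

/-- Chart (1, 1). -/
def P11 : Pb := chartPb true true Nd w G []

/-- The offset. -/
def KK : ℕ := 6064523798049644277925701126806650606472211004362096137261922023539261533931159712229993784486900304494092698035668254711607734547323493716579247168129613825017402250081444943555723771998431425098683590600454956058175183022718976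

end Vale.Agent.P154.D4.K2
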